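import Vale.Agent.Lib.P195.ExtLemmas
import Vale.Agent.Lib.P195H.Top

/-!
The complete minimal resolution as a `ℤ`-indexed chain, and the vanishing of `Ext`.
-/

set_option linter.style.haveILetI false
set_option linter.unusedVariables false

open CategoryTheory Abelian

namespace Vale.Agent.Lib.P195H

open Vale.Agent.Lib.P195

universe u

variable {R : Type u} [Ring R]

/-- A minimal complete resolution. -/
structure Chain (R : Type u) [Ring R] where
  X : ℤ → ModuleCat.{u} R
  good : ∀ k, Good R (X k)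
  link : ∀ k, LinkData R (X k) (X (k + 1))

/-- Existence of the minimal complete resolution through a given module. -/
theorem exists_chain (L : LSI R) [IsArtinianRing R] (X₀ : ModuleCat.{u} R) (h₀ : Good R X₀) :
    ∃ C : Chain R, C.X 0 = X₀ := by
  classical
  let GM := {A : ModuleCat.{u} R // Good R A}
  have hf : ∀ A : GM, ∃ B : GM, Nonempty (LinkData R A.1 B.1) := by
    rintro ⟨A, hA⟩
    obtain ⟨X, i1, i2, hl, hg⟩ := exists_link_forward L A hA
    exact ⟨⟨ModuleCat.of R X, hg⟩, hl⟩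
  have hb : ∀ A : GM, ∃ B : GM, Nonempty (LinkData R B.1 A.1) := by
    rintro ⟨A, hA⟩
    obtain ⟨Y, i1, i2, hl, hg⟩ := exists_link_backward L A hA
    exact ⟨⟨ModuleCat.of R Y, hg⟩, hl⟩
  choose fwd hfwd using hf
  choose bwd hbwd using hb
  let F : ℕ → GM := fun n => Nat.rec ⟨X₀, h₀⟩ (fun _ A => fwd A) n
  let G : ℕ → GM := fun n => Nat.rec ⟨X₀, h₀⟩ (fun _ A => bwd A) n
  let Xs : ℤ → GM := fun k => match k with
    | Int.ofNat n => F n
    | Int.negSucc n => G (n + 1)
  have hlink : ∀ k, Nonempty (LinkData R (Xs k).1 (Xs (k + 1)).1) := by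
    intro k
    match k with
    | Int.ofNat n => exact hfwd (F n)
    | Int.negSucc 0 => exact hbwd (G 0)
    | Int.negSucc (n + 1) => exact hbwd (G (n + 1))
  exact ⟨⟨fun k => (Xs k).1, fun k => (Xs k).2, fun k => (hlink k).some⟩, rfl⟩

namespace Chain

variable (C : Chain R)

instance (k : ℤ) : Module.Finite R (C.X k) := (C.good k).fin
instance (k : ℤ) : Nontrivial (C.X k) := (C.good k).nontriv

/-- The free module of a step. -/
abbrev F (k : ℤ) : ModuleCat.{u} R := ModuleCat.of R (Fin (C.link k).n → R)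

/-- The short complex of a step. -/
noncomputable abbrev sc (k : ℤ) : ShortComplex (ModuleCat.{u} R) :=
  ShortComplex.mk (X₁ := C.X (k + 1)) (X₂ := C.F k) (X₃ := C.X k)
    (ModuleCat.ofHom (C.link k).ι) (ModuleCat.ofHom (C.link k).π) (by
      ext x
      exact (C.link k).exact.apply_apply_eq_zero x)

lemma sexact (k : ℤ) : (C.sc k).ShortExact := by
  refine ShortComplex.ShortExact.mk' ?_ ?_ ?_
  · exact (ShortComplex.ShortExact.moduleCat_exact_iff_function_exact _).mpr (C.link k).exact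
  · exact (ModuleCat.mono_iff_injective _).mpr (C.link k).ι_inj
  · exact (ModuleCat.epi_iff_surjective _).mpr (C.link k).π_surj

instance (k : ℤ) : Projective (C.sc k).X₂ :=
  (ModuleCat.of R (Fin (C.link k).n → R)).projective_of_categoryTheory_projective

end Chain

/-- Injectivity of the free modules in terms of `Ext`. -/
lemma ext_free_zero (L : LSI R) {Z : ModuleCat.{u} R} (m n : ℕ)
    (e : Ext Z (ModuleCat.of R (Fin m → R)) (n + 1)) : e = 0 := by
  haveI := L.inj
  haveI : Injective (ModuleCat.of R R) := Module.injective_object_of_injective_module R R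
  exact ext_free_vanish m (fun e' => Ext.eq_zero_of_injective e') e

/-- Shift back in the first variable. -/
lemma ext_unshift_first {T : ShortComplex (ModuleCat.{u} R)} (hT : T.ShortExact)
    [Projective T.X₂] (Y : ModuleCat.{u} R) (n : ℕ)
    (h : ∀ e : Ext T.X₁ Y (n + 1), e = 0) (e : Ext T.X₃ Y (n + 2)) : e = 0 := by
  obtain ⟨x₁, rfl⟩ := Ext.contravariant_sequence_exact₃ hT Y e (Ext.eq_zero_of_projective _)
    (n₀ := n + 1) (by omega)
  rw [h x₁, Ext.comp_zero]

/-- Shift back in the second variable. -/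
lemma ext_unshift_second {T : ShortComplex (ModuleCat.{u} R)} (hT : T.ShortExact)
    (Z : ModuleCat.{u} R) (n : ℕ)
    (h1 : ∀ e : Ext Z T.X₁ (n + 2), e = 0) (h2 : ∀ e : Ext Z T.X₂ (n + 1), e = 0)
    (e : Ext Z T.X₃ (n + 1)) : e = 0 := by
  obtain ⟨x₂, rfl⟩ := Ext.covariant_sequence_exact₃ Z hT e (n₁ := n + 2) rfl (h1 _)
  rw [h2 x₂, Ext.zero_comp]

/-- The lifting property given by the vanishing of `Ext¹`. -/
lemma lift_of_ext_vanish {T : ShortComplex (ModuleCat.{u} R)} (hT : T.ShortExact)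
    (Z : ModuleCat.{u} R) (h : ∀ e : Ext Z T.X₁ 1, e = 0) (f : Z ⟶ T.X₃) :
    ∃ g : Z ⟶ T.X₂, g ≫ T.g = f := by
  obtain ⟨x₂, hx₂⟩ := Ext.covariant_sequence_exact₃ Z hT (Ext.mk₀ f) (n₁ := 1) rfl (h _)
  obtain ⟨g, rfl⟩ := (Ext.mk₀_bijective _ _).2 x₂
  refine ⟨g, ?_⟩
  apply (Ext.mk₀_bijective _ _).1
  rw [← Ext.mk₀_comp_mk₀]
  exact hx₂

namespace Chain

variable (C : Chain R)

/-- Self-extensions vanish for all modules of the chain. -/
lemma rigid (L : LSI R) (s : ℕ) (h₀ : ∀ n : ℕ, s ≤ n → ∀ e : Ext (C.X 0) (C.X 0) (n + 1), e = 0)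
    (b : ℤ) : ∀ n : ℕ, s ≤ n → ∀ e : Ext (C.X b) (C.X b) (n + 1), e = 0 := by
  induction b using Int.induction_on with
  | zero => exact h₀
  | succ i ih =>
    intro n hn e
    refine ext_shift_first (S := C.sc (i : ℤ)) (C.sexact _) _ n ?_ e
    intro e₂
    exact ext_shift_second (S := C.sc (i : ℤ)) (C.sexact _) _ (n + 1) (ih n hn)
      (fun e₃ => ext_free_zero L _ _ e₃) e₂
  | pred i ih =>
    intro n hn e
    have h1 : ∀ e' : Ext (C.X (-(i : ℤ) - 1)) (C.X (-(i : ℤ) - 1 + 1)) (n + 2), e' = 0 := by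
      intro e'
      refine ext_unshift_first (T := C.sc (-(i : ℤ) - 1)) (C.sexact _) _ n ?_ e'
      have hcast : (-(i : ℤ) - 1 + 1) = -(i : ℤ) := by ring
      intro e''
      revert e''
      show ∀ e'' : Ext (C.X (-(i : ℤ) - 1 + 1)) (C.X (-(i : ℤ) - 1 + 1)) (n + 1), e'' = 0
      rw [hcast]
      exact ih n hn
    exact ext_unshift_second (T := C.sc (-(i : ℤ) - 1)) (C.sexact _) _ n h1
      (fun e₃ => ext_free_zero L _ _ e₃) e

/-- Extensions from later modules to earlier ones vanish. -/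
lemma ext_far (L : LSI R) (s : ℕ)
    (h₀ : ∀ n : ℕ, s ≤ n → ∀ e : Ext (C.X 0) (C.X 0) (n + 1), e = 0) (d : ℕ) :
    ∀ (k b : ℤ), k = b + d → ∀ n : ℕ, s ≤ n + d → ∀ e : Ext (C.X k) (C.X b) (n + 1), e = 0 := by
  induction d with
  | zero =>
    intro k b h n hn
    have : k = b := by simpa using h
    subst this
    exact C.rigid L s h₀ k n (by simpa using hn)
  | succ d ih =>
    intro k b h n hn e
    have hk : k = (b + d) + 1 := by
      rw [h]
      push_cast
      ring
    subst hk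
    exact ext_shift_first (S := C.sc (b + d)) (C.sexact _) _ n
      (ih (b + d) b rfl (n + 1) (by omega)) e

lemma ext_one (L : LSI R) (s : ℕ)
    (h₀ : ∀ n : ℕ, s ≤ n → ∀ e : Ext (C.X 0) (C.X 0) (n + 1), e = 0) {k b : ℤ}
    (h : b + s ≤ k) (e : Ext (C.X k) (C.X b) 1) : e = 0 := by
  have h' : 0 ≤ k - b := by omega
  obtain ⟨d, hd⟩ := Int.eq_ofNat_of_zero_le h'
  exact C.ext_far L s h₀ d k b (by omega) 0 (by omega) e

/-- Maps from a later module extend to the free module. -/
lemma extend (L : LSI R) (s : ℕ)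
    (h₀ : ∀ n : ℕ, s ≤ n → ∀ e : Ext (C.X 0) (C.X 0) (n + 1), e = 0) {k b : ℤ}
    (h : b + s ≤ k) (f : C.X (k + 1) →ₗ[R] C.X b) :
    ∃ g : (Fin (C.link k).n → R) →ₗ[R] C.X b, g ∘ₗ (C.link k).ι = f := by
  obtain ⟨g, hg⟩ := extend_of_ext_vanish (S := C.sc k) (C.sexact k) (C.X b)
    (C.ext_one L s h₀ h) (ModuleCat.ofHom f)
  refine ⟨g.hom, ?_⟩
  have := congrArg ModuleCat.Hom.hom hg
  simpa using this

/-- Maps to an earlier module lift to the free module. -/
lemma lift (L : LSI R) (s : ℕ)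
    (h₀ : ∀ n : ℕ, s ≤ n → ∀ e : Ext (C.X 0) (C.X 0) (n + 1), e = 0) {k b : ℤ}
    (h : b + 1 + s ≤ k) (f : C.X k →ₗ[R] C.X b) :
    ∃ g : C.X k →ₗ[R] (Fin (C.link b).n → R), (C.link b).π ∘ₗ g = f := by
  obtain ⟨g, hg⟩ := lift_of_ext_vanish (T := C.sc b) (C.sexact b) (C.X k)
    (C.ext_one L s h₀ h) (ModuleCat.ofHom f)
  refine ⟨g.hom, ?_⟩
  have := congrArg ModuleCat.Hom.hom hg
  simpa using this

end Chain

/-- Passing from a nonprojective module to its first syzygy. -/
theorem exists_start (L : LSI R) [IsArtinianRing R] (M : ModuleCat.{u} R) [Module.Finite R M]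
    (hM : ¬ Module.Projective R M) (s : ℕ)
    (h : ∀ n : ℕ, s ≤ n → ∀ e : Ext M M (n + 1), e = 0) :
    ∃ X₀ : ModuleCat.{u} R, Good R X₀ ∧ ∀ n : ℕ, s ≤ n → ∀ e : Ext X₀ X₀ (n + 1), e = 0 := by
  classical
  haveI := L.inj
  obtain ⟨n, π, hπ, hk⟩ := exists_min_cover L M
  let X₀ := ModuleCat.of R (LinearMap.ker π)
  let T : ShortComplex (ModuleCat.{u} R) :=
    ShortComplex.mk (X₁ := X₀) (X₂ := ModuleCat.of R (Fin n → R)) (X₃ := M)
      (ModuleCat.ofHom (LinearMap.ker π).subtype) (ModuleCat.ofHom π) (by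
        ext x
        exact x.2)
  have hT : T.ShortExact := LinearMap.shortExact_shortComplexKer hπ
  haveI : Projective T.X₂ :=
    (ModuleCat.of R (Fin n → R)).projective_of_categoryTheory_projective
  refine ⟨X₀, ⟨inferInstance, ?_, ?_⟩, ?_⟩
  · -- nontrivial
    by_contra hnt
    rw [not_nontrivial_iff_subsingleton] at hnt
    apply hM
    have hinj : Function.Injective π := by
      rw [injective_iff_map_eq_zero]
      intro x hx
      have : (⟨x, hx⟩ : LinearMap.ker π) = 0 := Subsingleton.elim _ _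
      exact congrArg Subtype.val this
    exact Module.Projective.of_equiv (LinearEquiv.ofBijective π ⟨hinj, hπ⟩)
  · -- functionals
    intro f x
    obtain ⟨F, hF⟩ := Module.Injective.out (LinearMap.ker π).subtype
      (Submodule.subtype_injective _) f
    rw [← hF x]
    have hsum := LinearMap.pi_apply_eq_sum_univ F ((LinearMap.ker π).subtype x)
    rw [hsum]
    refine Submodule.sum_mem _ fun i _ => ?_
    exact Ideal.mul_mem_right _ _ (hk _ x.2 i)
  · -- rigidity
    intro m hm e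
    refine ext_shift_first hT _ m ?_ e
    intro e₂
    exact ext_shift_second hT _ (m + 1) (h m hm) (fun e₃ => ext_free_zero L _ _ e₃) e₂

end Vale.Agent.Lib.P195H
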