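import Vale.Agent.Lib.P195H.Numbers
import Vale.Agent.Lib.P195H.Chain

/-!
Assembly: a local self-injective ring with `J⁴ = 0` and composition length at least ten has no
nonprojective module without positive self-extensions.
-/

set_option linter.style.haveILetI false
set_option linter.unusedVariables false
set_option linter.unusedSectionVars false

open CategoryTheory Abelian

namespace Vale.Agent.Lib.P195H

open Vale.Agent.Lib.P195

universe u

variable (S : Type*) [CommRing S] {R : Type u} [Ring R] [Algebra S R] [IsArtinianRing S]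
  [Module.Finite S R]

/-- Extension into a free module. -/
lemma free_extend (L : LSI R) {n : ℕ} {A X : Type u} [AddCommGroup A] [Module R A] [AddCommGroup X]
    [Module R X] (j : A →ₗ[R] X) (hj : Function.Injective j) (φ : A →ₗ[R] (Fin n → R)) :
    ∃ g : X →ₗ[R] (Fin n → R), g ∘ₗ j = φ := by
  haveI := L.inj
  have h : ∀ i : Fin n, ∃ g : X →ₗ[R] R, ∀ a, g (j a) = φ a i := fun i =>
    Module.Injective.out j hj (LinearMap.proj i ∘ₗ φ)
  choose g hg using h
  refine ⟨LinearMap.pi g, ?_⟩
  ext a i
  exact hg i a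

lemma LinkData.hk {Y X : Type u} [AddCommGroup Y] [Module R Y] [AddCommGroup X] [Module R X]
    (D : LinkData R Y X) : ∀ v, D.π v = 0 → ∀ i, v i ∈ Ring.jacobson R := by
  intro v hv i
  obtain ⟨x, rfl⟩ := (D.exact v).mp hv
  exact D.rad_le x i

lemma LinkData.rank_pos {Y X : Type u} [AddCommGroup Y] [Module R Y] [AddCommGroup X] [Module R X]
    [Nontrivial Y] (D : LinkData R Y X) : 1 ≤ D.n := by
  by_contra h
  have h0 : D.n = 0 := by omega
  obtain ⟨y, hy⟩ := exists_ne (0 : Y)
  obtain ⟨w, rfl⟩ := D.π_surj y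
  apply hy
  have : w = 0 := by
    ext i
    exact ((Fin.cast h0 i).elim0)
  rw [this, map_zero]

section Main

variable [IsArtinianRing R]

section Layers

variable (X : Type u) [AddCommGroup X] [Module R X] [Module.Finite R X]

/-- The radical filtration decomposes the length. -/
lemma layers_sum : hlen S R R X = hlen S R R (X ⧸ rad R X)
    + hlen S R R (rad R X ⧸ rad R (rad R X)) + hlen S R R (rad R (rad R X)) := by
  have e1 : hlen S R R X = hlen S R R (rad R X) + hlen S R R (X ⧸ rad R X) :=
    hlen_ring_add S (rad R X).subtype (rad R X).mkQ (Submodule.subtype_injective _)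
      (Submodule.mkQ_surjective _) (LinearMap.exact_subtype_mkQ _)
  have e2 : hlen S R R (rad R X) = hlen S R R (rad R (rad R X))
      + hlen S R R (rad R X ⧸ rad R (rad R X)) :=
    hlen_ring_add S (rad R (rad R X)).subtype (rad R (rad R X)).mkQ (Submodule.subtype_injective _)
      (Submodule.mkQ_surjective _) (LinearMap.exact_subtype_mkQ _)
  omega

end Layers

variable (L : LSI R) (C : Chain R)

/-- The top has length `rank * δ`. -/
lemma chain_top (k : ℤ) : hlen S R R (C.X k ⧸ rad R (C.X k)) =
    (C.link k).n * hlen S R R (resid R) :=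
  hlen_top S (C.link k).π (C.link k).π_surj (C.link k).hk

include L

/-- Maps from the residue module into a module of the chain. -/
lemma chain_resid (a : ℤ) : hlen S R (resid R) (C.X (a + 1)) =
    (C.link a).n * hlen S R R (resid R) :=
  hlen_hull S L (C.link a).ι (C.link a).ι_inj (C.link a).π (C.link a).exact (C.link a).soc_le
    resid_killed

omit L in
/-- The bottom layer is bounded through `J³`. -/
lemma chain_bottom (a : ℤ) : hlen S R R (rad R (rad R (C.X (a + 1)))) ≤
    (C.link a).n * hlen S R R (radCube R) := by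
  rw [← hlen_free_right S (C.link a).n]
  let Φ : rad R (rad R (C.X (a + 1))) →ₗ[R] (Fin (C.link a).n → radCube R) :=
    LinearMap.pi fun i => LinearMap.codRestrict (radCube R)
      (LinearMap.proj i ∘ₗ (C.link a).ι ∘ₗ (rad R (C.X (a + 1))).subtype ∘ₗ
        (rad R (rad R (C.X (a + 1)))).subtype)
      (fun y => rad_rad_mem (C.link a).ι (C.link a).rad_le y i)
  refine hlen_le_of_injective S Φ ?_
  intro y y' h
  apply Subtype.ext
  apply Subtype.ext
  apply (C.link a).ι_inj
  ext i
  have := congrFun h i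
  exact congrArg Subtype.val this

/-- The length relation of one step. -/
lemma chain_len (k : ℤ) : hlen S R R R * (C.link k).n =
    hlen S R R (C.X (k + 1)) + hlen S R R (C.X k) := by
  rw [← hlen_ring_add S (C.link k).ι (C.link k).π (C.link k).ι_inj (C.link k).π_surj
    (C.link k).exact, hlen_free_right S, mul_comm]

variable (s : ℕ) (h₀ : ∀ n : ℕ, s ≤ n → ∀ e : Ext (C.X 0) (C.X 0) (n + 1), e = 0)

include L h₀

/-- First recursion for the Hom groups. -/
lemma chain_hom_one {k b : ℤ} (h : b + s ≤ k) : hlen S R (C.X k) (C.X b) + hlen S R (C.X (k + 1)) (C.X b)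
    = (C.link k).n * hlen S R R (C.X b) := by
  rw [← hlen_free_left S (C.link k).n]
  exact (hlen_add_of_extend S (C.link k).ι (C.link k).π (C.link k).ι_inj (C.link k).π_surj
    (C.link k).exact (C.extend L s h₀ h)).symm

/-- Second recursion for the Hom groups. -/
lemma chain_hom_two {k b : ℤ} (h : b + 1 + s ≤ k) :
    hlen S R (C.X k) (C.X b) + hlen S R (C.X k) (C.X (b + 1))
    = (C.link b).n * hlen S R R (C.X k) := by
  rw [← hlen_dual S L _ (C.X k) rfl, ← hlen_free_right S (C.link b).n, add_comm]
  exact (hlen_add_of_lift S (C.link b).ι (C.link b).π (C.link b).ι_inj (C.link b).exact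
    (C.lift L s h₀ h)).symm

omit h₀ in
/-- Maps through the top and the socle. -/
lemma chain_hom_ge (k a : ℤ) : (C.link k).n * ((C.link a).n * hlen S R R (resid R)) ≤
    hlen S R (C.X k) (C.X (a + 1)) := by
  rw [← chain_resid S L C a]
  exact hlen_ge_top S (C.link k).π (C.link k).π_surj (C.link k).hk

/-- The layer inequality for later indices. -/
lemma chain_star_one (a m : ℤ) (h : a + 1 + s ≤ m) :
    (C.link (m + 1)).n * hlen S R R (rad R (C.X (a + 1)) ⧸ rad R (rad R (C.X (a + 1)))) ≤
      (C.link m).n * hlen S R R (C.X (a + 1) ⧸ rad R (C.X (a + 1))) +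
      (C.link (m + 1 + 1)).n * hlen S R R (rad R (rad R (C.X (a + 1)))) := by
  have key := star_one S (C.link m).ι (fun n => mem_rad_of_coords _ ((C.link m).rad_le n))
    (C.link (m + 1)).π (C.link (m + 1)).π_surj (C.link (m + 1)).ι (C.link (m + 1)).exact
    (rad R (C.X (a + 1))).subtype (Submodule.subtype_injective _)
    (rad R (C.X (a + 1))).mkQ (LinearMap.exact_subtype_mkQ _)
    (rad R (rad R (C.X (a + 1)))).subtype (Submodule.subtype_injective _)
    (rad R (rad R (C.X (a + 1)))).mkQ (Submodule.mkQ_surjective _) (LinearMap.exact_subtype_mkQ _)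
    (fun a' ha' x => by
      rw [Submodule.mkQ_apply, Submodule.Quotient.mk_eq_zero]
      exact Submodule.smul_mem_smul ha' trivial)
    (C.extend L s h₀ h)
  rw [hlen_cover_free S (C.link (m + 1)).π (C.link (m + 1)).π_surj (C.link (m + 1)).hk
      top_killed,
    hlen_free_left S] at key
  have h2 : hlen S R (C.X (m + 1 + 1)) (rad R (rad R (C.X (a + 1)))) ≤
      (C.link (m + 1 + 1)).n * hlen S R R (rad R (rad R (C.X (a + 1)))) := by
    rw [← hlen_free_left S]
    exact hlen_le_of_surjective S (C.link (m + 1 + 1)).π (C.link (m + 1 + 1)).π_surj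
  omega

/-- The layer inequality for earlier indices. -/
lemma chain_star_two (a q : ℤ) (h : q + 1 + 1 + 1 + s ≤ a + 1) :
    (C.link (q + 1)).n * hlen S R R (rad R (C.X (a + 1)) ⧸ rad R (rad R (C.X (a + 1)))) ≤
      (C.link (q + 1 + 1)).n * hlen S R R (rad R (rad R (C.X (a + 1)))) +
      (C.link q).n * hlen S R R (C.X (a + 1) ⧸ rad R (C.X (a + 1))) := by
  have key := star_two S (Y := C.X (a + 1)) (Z := C.X (q + 1 + 1)) (Z'' := C.X (q + 1))
    (Z' := C.X (q + 1 + 1 + 1))
    (rad R (C.X (a + 1))).subtype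
    (rad R (C.X (a + 1))).mkQ (Submodule.mkQ_surjective _) (LinearMap.exact_subtype_mkQ _)
    (rad R (rad R (C.X (a + 1)))).subtype
    (rad R (rad R (C.X (a + 1)))).mkQ (Submodule.mkQ_surjective _) (LinearMap.exact_subtype_mkQ _)
    top_killed
    (C.link (q + 1)).ι (C.link (q + 1)).ι_inj (C.link (q + 1)).π (C.link (q + 1)).exact
    (free_extend L _ (Submodule.subtype_injective _))
    (C.link (q + 1 + 1)).π (C.link (q + 1 + 1)).soc_le
    (C.lift L s h₀ (by omega))
  rw [hlen_hull S L (C.link (q + 1)).ι (C.link (q + 1)).ι_inj (C.link (q + 1)).π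
      (C.link (q + 1)).exact (C.link (q + 1)).soc_le top_killed,
    hlen_free_right S, hlen_dual S L _ _ rfl,
    hlen_hull S L (C.link q).ι (C.link q).ι_inj (C.link q).π (C.link q).exact (C.link q).soc_le
      top_killed] at key
  exact key

/-- The contradiction. -/
theorem chain_false (e : ℕ) (he : 1 ≤ e) (hJ3 : hlen S R R (radCube R) ≤ e * hlen S R R (resid R))
    (hC : ((e + 2) ^ 2 + 1) * hlen S R R (resid R) ≤ hlen S R R R) : False := by
  haveI : Nontrivial R := L.nontriv
  haveI hresid : Nontrivial (resid R) := by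
    refine Submodule.Quotient.nontrivial_iff.mpr ?_
    exact ne_of_lt (Ring.jacobson_lt_top R)
  -- real numbers
  let c : ℝ := hlen S R R R
  let δ : ℝ := hlen S R R (resid R)
  let d : ℤ → ℝ := fun k => hlen S R R (C.X k)
  let β : ℤ → ℝ := fun k => (C.link k).n
  let H : ℤ → ℤ → ℝ := fun k b => hlen S R (C.X k) (C.X b)
  have hδ : 0 < δ := by
    have := hlen_ring_pos S (R := R) (resid R)
    exact Nat.cast_pos.mpr this
  have hc : 0 < c := by
    have := hlen_ring_pos S (R := R) R
    exact Nat.cast_pos.mpr this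
  have hd : ∀ k, 0 < d k := by
    intro k
    have := hlen_ring_pos S (R := R) (C.X k)
    exact Nat.cast_pos.mpr this
  have hβ1 : ∀ k, 1 ≤ β k := by
    intro k
    have := (C.link k).rank_pos
    have h2 := (Nat.cast_le (α := ℝ)).mpr this
    push_cast at h2
    exact h2
  have hβ0 : ∀ k, 0 ≤ β k := fun k => by linarith [hβ1 k]
  have hlen1 : ∀ k, c * β k = d (k + 1) + d k := by
    intro k
    have := chain_len S L C k
    have h2 := congrArg (Nat.cast : ℕ → ℝ) this
    push_cast at h2
    exact h2
  have hCδ : (((e : ℝ) + 2) ^ 2 + 1) * δ ≤ c := by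
    have h2 := (Nat.cast_le (α := ℝ)).mpr hC
    push_cast at h2
    exact h2
  have he' : (1 : ℝ) ≤ e := by exact_mod_cast he
  have hJ3' : (hlen S R R (radCube R) : ℝ) ≤ e * δ := by
    have h2 := (Nat.cast_le (α := ℝ)).mpr hJ3
    push_cast at h2
    exact h2
  -- lengths of the layers
  let y0 : ℤ → ℝ := fun k => hlen S R R (C.X k ⧸ rad R (C.X k))
  let y1 : ℤ → ℝ := fun k => hlen S R R (rad R (C.X k) ⧸ rad R (rad R (C.X k)))
  let y2 : ℤ → ℝ := fun k => hlen S R R (rad R (rad R (C.X k)))
  have hsum : ∀ k, d k = y0 k + y1 k + y2 k := by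
    intro k
    have := layers_sum S (R := R) (C.X k)
    have h2 := congrArg (Nat.cast : ℕ → ℝ) this
    push_cast at h2
    exact h2
  have hy0 : ∀ k, y0 k = β k * δ := by
    intro k
    have := chain_top S C k
    have h2 := congrArg (Nat.cast : ℕ → ℝ) this
    push_cast at h2
    exact h2
  have hy1n : ∀ k, 0 ≤ y1 k := fun k => Nat.cast_nonneg _
  have hy2n : ∀ k, 0 ≤ y2 k := fun k => Nat.cast_nonneg _
  have hy2 : ∀ a, y2 (a + 1) ≤ β a * (e * δ) := by
    intro a
    have := chain_bottom S C a
    have h2 := (Nat.cast_le (α := ℝ)).mpr this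
    push_cast at h2
    exact h2.trans (mul_le_mul_of_nonneg_left hJ3' (hβ0 a))
  -- the recursions
  have hH1 : ∀ k b : ℤ, b + s ≤ k → H k b + H (k + 1) b = β k * d b := by
    intro k b h
    have := chain_hom_one S L C s h₀ h
    have h2 := congrArg (Nat.cast : ℕ → ℝ) this
    push_cast at h2
    exact h2
  have hH2 : ∀ k b : ℤ, b + 1 + s ≤ k → H k b + H k (b + 1) = β b * d k := by
    intro k b h
    have := chain_hom_two S L C s h₀ h
    have h2 := congrArg (Nat.cast : ℕ → ℝ) this
    push_cast at h2
    exact h2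
  have hHge : ∀ k a, β k * (β a * δ) ≤ H k (a + 1) := by
    intro k a
    have := chain_hom_ge S L C k a
    have h2 := (Nat.cast_le (α := ℝ)).mpr this
    push_cast at h2
    exact h2
  -- the sign alternation
  let g : ℤ → ℤ → ℝ := fun k b => c * H k b - d k * d b
  have hg1 : ∀ k b : ℤ, b + s ≤ k → g (k + 1) b = - g k b := by
    intro k b h
    have h1 := hH1 k b h
    have h2 := hlen1 k
    have e : H (k + 1) b = β k * d b - H k b := by linarith
    show c * H (k + 1) b - d (k + 1) * d b = - (c * H k b - d k * d b)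
    rw [e]
    have : c * (β k * d b - H k b) = (c * β k) * d b - c * H k b := by ring
    rw [this, h2]
    ring
  have hg2 : ∀ k b : ℤ, b + 1 + s ≤ k → g k (b + 1) = - g k b := by
    intro k b h
    have h1 := hH2 k b h
    have h2 := hlen1 b
    have e : H k (b + 1) = β b * d k - H k b := by linarith
    show c * H k (b + 1) - d k * d (b + 1) = - (c * H k b - d k * d b)
    rw [e]
    have : c * (β b * d k - H k b) = (c * β b) * d k - c * H k b := by ring
    rw [this, h2]
    ring
  have hg3 : ∀ b : ℤ, g (b + 1 + s) (b + 1) = g (b + s) b := by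
    intro b
    have e1 : b + 1 + (s : ℤ) = b + s + 1 := by ring
    rw [hg2 (b + 1 + s) b le_rfl, e1, hg1 (b + s) b le_rfl, neg_neg]
  have hg4 : ∀ b : ℤ, g (b + s) b = g (0 + s) 0 := by
    intro b
    induction b using Int.induction_on with
    | zero => rfl
    | succ i ih => rw [hg3, ih]
    | pred i ih =>
      have := hg3 (-(i : ℤ) - 1)
      rw [sub_add_cancel] at this
      rw [← this, ih]
  have hg5 : ∀ (m : ℕ) (b : ℤ), g (b + s + m) b = (-1) ^ m * g (0 + s) 0 := by
    intro m b
    induction m with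
    | zero => simpa using hg4 b
    | succ m ih =>
      have e : b + s + ((m + 1 : ℕ) : ℤ) = (b + s + m) + 1 := by
        push_cast
        ring
      rw [e, hg1 _ _ (by omega), ih, pow_succ]
      ring
  -- the parity
  obtain ⟨ε, hε, hpar⟩ : ∃ ε : ℤ, (ε = 0 ∨ ε = 1) ∧ ∀ k b : ℤ, b + s ≤ k → (k - b) % 2 = ε →
      c * H k b ≤ d k * d b := by
    by_cases hG : g (0 + s) 0 ≤ 0
    · refine ⟨(s : ℤ) % 2, by omega, ?_⟩
      intro k b hbk hp
      have h' : 0 ≤ k - (b + s) := by omega
      obtain ⟨m, hm⟩ := Int.eq_ofNat_of_zero_le h'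
      have hk : k = b + s + m := by omega
      have hmev : Even m := by
        rw [Nat.even_iff]
        omega
      have := hg5 m b
      rw [← hk, hmev.neg_one_pow, one_mul] at this
      have h3 : g k b = c * H k b - d k * d b := rfl
      linarith
    · refine ⟨((s : ℤ) + 1) % 2, by omega, ?_⟩
      intro k b hbk hp
      have h' : 0 ≤ k - (b + s) := by omega
      obtain ⟨m, hm⟩ := Int.eq_ofNat_of_zero_le h'
      have hk : k = b + s + m := by omega
      have hmod : Odd m := by
        rw [Nat.odd_iff]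
        omega
      have := hg5 m b
      rw [← hk, hmod.neg_one_pow] at this
      have h3 : g k b = c * H k b - d k * d b := rfl
      push Not at hG
      linarith
  -- apply the number lemma
  let C₀ : ℝ := c / δ
  let x : ℤ → ℝ := fun k => d k / c
  have hC₀ : ((e : ℝ) + 2) ^ 2 < C₀ := by
    have h3 : ((e : ℝ) + 2) ^ 2 + 1 ≤ C₀ := by
      rw [le_div_iff₀ hδ]
      exact hCδ
    linarith
  have hCx : ∀ k, C₀ * x k = d k / δ := by
    intro k
    show c / δ * (d k / c) = d k / δ
    field_simp
  refine numbers C₀ (e : ℝ) he' hC₀ s x β (fun k => div_pos (hd k) hc) hβ1 ?_ ?_ ?_ ε ?_ hε ?_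
  · -- the relation
    intro k
    show β k = d k / c + d (k + 1) / c
    have := hlen1 k
    field_simp
    linarith
  · -- rank versus top
    intro k
    rw [hCx, le_div_iff₀ hδ, ← hy0 k, hsum k]
    linarith [hy1n k, hy2n k]
  · -- rank versus socle
    intro k
    rw [hCx, le_div_iff₀ hδ]
    have h1 : hlen S R (resid R) (C.X (k + 1)) ≤ hlen S R R (C.X (k + 1)) :=
      hlen_le_of_surjective S (Ring.jacobson R).mkQ (Submodule.mkQ_surjective _)
    rw [chain_resid S L C k] at h1
    have h2 := (Nat.cast_le (α := ℝ)).mpr h1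
    push_cast at h2
    exact h2
  · -- the top to socle bound
    intro k b hbk hp
    obtain ⟨a, rfl⟩ : ∃ a, b = a + 1 := ⟨b - 1, by ring⟩
    rw [add_sub_cancel_right]
    have h1 := hHge k a
    have h2 := hpar k (a + 1) hbk hp
    have h3 : C₀ * x k * x (a + 1) = d k * d (a + 1) / (δ * c) := by
      show c / δ * (d k / c) * (d (a + 1) / c) = _
      field_simp
    rw [h3, le_div_iff₀ (mul_pos hδ hc)]
    calc β k * β a * (δ * c) = (β k * (β a * δ)) * c := by ring
      _ ≤ H k (a + 1) * c := by
        exact mul_le_mul_of_nonneg_right h1 hc.le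
      _ = c * H k (a + 1) := by ring
      _ ≤ _ := h2
  · -- the layer bound
    intro n b hnb
    obtain ⟨a, rfl⟩ : ∃ a, b = a + 1 := ⟨b - 1, by ring⟩
    rw [add_sub_cancel_right, hCx]
    have hstar : β n * y1 (a + 1) ≤ β (n - 1) * y0 (a + 1) + β (n + 1) * y2 (a + 1) := by
      rcases hnb with hn | hn
      · obtain ⟨m, rfl⟩ : ∃ m, n = m + 1 := ⟨n - 1, by ring⟩
        rw [add_sub_cancel_right]
        have := chain_star_one S L C s h₀ a m (by omega)
        have h2 := (Nat.cast_le (α := ℝ)).mpr this
        push_cast at h2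
        exact h2
      · obtain ⟨q, rfl⟩ : ∃ q, n = q + 1 := ⟨n - 1, by ring⟩
        rw [add_sub_cancel_right]
        have := chain_star_two S L C s h₀ a q (by omega)
        have h' : β (q + 1) * y1 (a + 1) ≤ β (q + 1 + 1) * y2 (a + 1) + β q * y0 (a + 1) := by
          have h2 := (Nat.cast_le (α := ℝ)).mpr this
          push_cast at h2
          exact h2
        linarith
    have hdδ : d (a + 1) = y0 (a + 1) + y1 (a + 1) + y2 (a + 1) := hsum _
    have hy00 := hy0 (a + 1)
    have hy22 := hy2 a
    have hn0 := hβ0 n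
    have hn1 := hβ0 (n + 1)
    have hn2 := hβ0 (n - 1)
    rw [← mul_div_assoc, div_le_iff₀ hδ]
    have h5 : β n * d (a + 1) ≤ y0 (a + 1) * (β n + β (n - 1)) +
        y2 (a + 1) * (β n + β (n + 1)) := by
      rw [hdδ]
      nlinarith
    have h6 : y2 (a + 1) * (β n + β (n + 1)) ≤ (β a * (e * δ)) * (β n + β (n + 1)) :=
      mul_le_mul_of_nonneg_right hy22 (by linarith)
    rw [hy00] at h5
    nlinarith

end Main

/-- The main theorem in terms of the structure `LSI`. -/
theorem lsi_projective (L : LSI R) [IsArtinianRing R] (e : ℕ) (he : 1 ≤ e) (s : ℕ)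
    (hJ3 : hlen S R R (radCube R) ≤ e * hlen S R R (resid R))
    (hC : ((e + 2) ^ 2 + 1) * hlen S R R (resid R) ≤ hlen S R R R)
    (M : ModuleCat.{u} R) [Module.Finite R M]
    (h : ∀ n : ℕ, s ≤ n → ∀ e : Ext M M (n + 1), e = 0) : Module.Projective R M := by
  by_contra hM
  obtain ⟨X₀, hg, hr⟩ := exists_start L M hM s h
  obtain ⟨C, rfl⟩ := exists_chain L X₀ hg
  exact chain_false S L C s hr e he hJ3 hC

end Vale.Agent.Lib.P195H
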