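import Mathlib

/-!
# Pure number lemma behind the local self-injective `J⁴ = 0` theorem (P195)

`x k` is the normalized length of the `k`-th (co)syzygy, `β k` the rank of the free module in the
complete minimal resolution, `C` the composition length of the ring.

PAPER PROOF.  Put `V k = β k / x k = 1 + p k` and `U k = β (k-1) / x k = 1 + 1 / p (k-1)`, where
`p k = x (k+1) / x k`, and `A n = β (n-1) / β n = U n / V n`.  From (h1), (h2), (h2') all of
`V, U` lie in `[1, C]`, `A` in `[1/C, C]`, `x k ≥ 1/C`.  Dividing (hB) by `β n * x b` gives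
`(B)  C ≤ V b * (1 + A n) + U b * (1 + 1 / A (n+1))`  for `b < n`.

`oneSided`:  let `a = limsup A` at `+∞`.

Step 1, `a < 1`.  Suppose `a ≥ 1`.  For every `ε > 0` frequently `A n ≤ 1 + ε` (otherwise `β` decays
geometrically, contradicting `β ≥ 1`), and frequently `A n ≥ 1 - ε`.  Hence for each `b` there is
`n > b` with `A n ≤ 1 + ε`, `A (n+1) ≥ 1 - ε` (take `n` with `A n ≤ 1+ε`, then the first later index
with `A ≥ 1-ε`, minus one).  (B) gives `C ≤ (2 + 2ε)(V b + U b)` for small ε (`1/(1-ε) ≤ 1+2ε`),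
so `C/2 ≤ V b + U b` for all `b`, i.e. `q b + 1 / q (b-1) ≥ C/2 - 2 ≥ 3` with `q = p`.
If some `q (b-1) ≥ 1/2` then `q b ≥ 1`, `q (b+1) ≥ 2`, `q (b+2) ≥ 5/2` and then `q ≥ 5/2` forever,
so eventually `A n = (1 + 1/q (n-1)) / (1 + q n) ≤ 2/5`, contradicting `a ≥ 1`.  Otherwise `q < 1/2`
always and `x → 0`, contradicting `x ≥ 1/C`.

Step 2.  So `a < 1`, and `a ≥ 1/C > 0`.  Taking `n` large with `A n < a + ε`, `A (n+1) > a - ε` in (B)
and letting `ε → 0` gives  `(D)  C ≤ V b (1 + a) + U b (1 + 1/a)`  for all `b`.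
For large `b` we have `U b = A b * V b ≤ (a + ε) V b`, so `C ≤ V b (1 + a) (2 + ε/a)`.  Thus with
`v₀ = C / (2 (1 + a))` (note `v₀ > C/4 ≥ 5/2`): for every `w < v₀`, eventually `V b ≥ w`.
If eventually `V ≥ w` (`w > 1`) then eventually `U n ≤ 1 + 1/(w-1) = w/(w-1)` and
`A n = U n / V n ≤ 1/(w-1)`; hence `a ≤ 1/(v₀ - 1)`, that is `1 + a ≤ v₀/(v₀-1)`, and as
`1 + a = C/(2 v₀)` we get `C (v₀ - 1) ≤ 2 v₀^2`.  Together with `v₀ > 5/2` and `C ≥ 10` this forces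
`v₀^2 > C`:  if `v₀^2 ≤ C` then `v₀^2 (v₀-1) ≤ C (v₀-1) ≤ 2 v₀^2` so `v₀ ≤ 3`, and then
`C ≤ 2 v₀^2/(v₀-1) ≤ 9` as `v ↦ 2v²/(v-1)` is increasing on `[5/2, 3]`, contradiction.
Choose `v < v₀` with `v^2 > C`; eventually `V k ≥ v`.

`numbers`: apply `oneSided` to `x` and to the reversed sequence `x' j = x (-j)`, `β' j = β (-j-1)`,
for which `V' j = U (-j)`, `U' j = V (-j)`, and (hB) for `(n, b)`, `b < n` is the hypothesis
(hB) at `(-n-1, -b)`.  We get `v, v'` with `v^2 > C`, `v'^2 > C`, `V k ≥ v` for `k ≥ N`, `U b ≥ v'`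
for `b ≤ -N'`.  Choosing `k` large, `b` very negative, with `k - b` of the right parity,
(hA) says `V k * U b ≤ C`, contradiction.
-/

namespace Vale.Agent.Lib.P195H

/-- A geometric decay is impossible: for `ε > 0` there are arbitrarily late `n` with
`β (n - 1) ≤ (1 + ε) * β n`. -/
theorem freq_ratio_le (β : ℤ → ℝ) (hβ1 : ∀ k, 1 ≤ β k) (ε : ℝ) (hε : 0 < ε) (N : ℤ) :
    ∃ n, N ≤ n ∧ β (n - 1) ≤ (1 + ε) * β n := by
  by_contra! h
  have key : ∀ m : ℕ, (1 + ε) ^ (m + 1) * β (N + m) ≤ β (N - 1) := by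
    intro m
    induction m with
    | zero =>
      have := h N le_rfl
      simpa using this.le
    | succ m ih =>
      have h1 := h (N + (m + 1 : ℕ)) (by push_cast; omega)
      have h2 : N + ((m + 1 : ℕ) : ℤ) - 1 = N + m := by push_cast; ring
      rw [h2] at h1
      have hp : 0 < (1 + ε) ^ (m + 1) := by positivity
      calc (1 + ε) ^ (m + 1 + 1) * β (N + ((m + 1 : ℕ) : ℤ))
          = (1 + ε) ^ (m + 1) * ((1 + ε) * β (N + ((m + 1 : ℕ) : ℤ))) := by ring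
        _ ≤ (1 + ε) ^ (m + 1) * β (N + m) := by
            exact mul_le_mul_of_nonneg_left h1.le hp.le
        _ ≤ β (N - 1) := ih
  obtain ⟨m, hm⟩ := pow_unbounded_of_one_lt (β (N - 1)) (by linarith : (1 : ℝ) < 1 + ε)
  have h1 := key m
  have h2 := hβ1 (N + m)
  have hp : (1 + ε) ^ m ≤ (1 + ε) ^ (m + 1) :=
    pow_le_pow_right₀ (by linarith) (Nat.le_succ m)
  have hp0 : 0 < (1 + ε) ^ (m + 1) := by positivity
  have : (1 + ε) ^ (m + 1) * 1 ≤ (1 + ε) ^ (m + 1) * β (N + m) :=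
    mul_le_mul_of_nonneg_left h2 hp0.le
  linarith

/-- `A n = β (n-1) / β n`. -/
noncomputable def Arat (β : ℤ → ℝ) (n : ℤ) : ℝ := β (n - 1) / β n
/-- `V k = β k / x k`. -/
noncomputable def Vrat (x β : ℤ → ℝ) (k : ℤ) : ℝ := β k / x k
/-- `U k = β (k-1) / x k`. -/
noncomputable def Urat (x β : ℤ → ℝ) (k : ℤ) : ℝ := β (k - 1) / x k

/-- Passing to the limit in a linear inequality. -/
theorem limit_arg (C P K : ℝ) (hK : 0 ≤ K) (h : ∀ ε, 0 < ε → ε ≤ 1 → C ≤ P + ε * K) : C ≤ P := by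
  by_contra! hlt
  have hg : 0 < C - P := by linarith
  set ε := min 1 ((C - P) / (2 * (K + 1))) with hεdef
  have hεpos : 0 < ε := lt_min one_pos (by positivity)
  have h3 := h ε hεpos (min_le_left _ _)
  have h4 : ε ≤ (C - P) / (2 * (K + 1)) := min_le_right _ _
  have h5 : ε * (K + 1) ≤ (C - P) / 2 := by
    have : ε * (2 * (K + 1)) ≤ C - P := by
      rwa [le_div_iff₀ (by positivity)] at h4
    nlinarith
  nlinarith

section
variable {C : ℝ} {x β : ℤ → ℝ}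

theorem hb1_aux (h1 : ∀ k, β k = x k + x (k + 1)) (k : ℤ) : β (k - 1) = x (k - 1) + x k := by
  have := h1 (k - 1)
  rwa [sub_add_cancel] at this

theorem Arat_pos (hβ1 : ∀ k, 1 ≤ β k) (n : ℤ) : 0 < Arat β n :=
  div_pos (by linarith [hβ1 (n - 1)]) (by linarith [hβ1 n])

theorem Vrat_pos (hx : ∀ k, 0 < x k) (hβ1 : ∀ k, 1 ≤ β k) (n : ℤ) : 0 < Vrat x β n :=
  div_pos (by linarith [hβ1 n]) (hx n)

theorem Urat_pos (hx : ∀ k, 0 < x k) (hβ1 : ∀ k, 1 ≤ β k) (n : ℤ) : 0 < Urat x β n :=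
  div_pos (by linarith [hβ1 (n - 1)]) (hx n)

theorem Urat_eq (hx : ∀ k, 0 < x k) (hβ1 : ∀ k, 1 ≤ β k) (n : ℤ) :
    Urat x β n = Arat β n * Vrat x β n := by
  unfold Urat Arat Vrat
  have : 0 < β n := by linarith [hβ1 n]
  have := this.ne'
  have := (hx n).ne'
  field_simp

theorem Arat_succ (n : ℤ) : Arat β (n + 1) = β n / β (n + 1) := by
  unfold Arat
  rw [add_sub_cancel_right]

theorem Arat_ge (hC : 0 < C) (hx : ∀ k, 0 < x k) (hβ1 : ∀ k, 1 ≤ β k)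
    (h1 : ∀ k, β k = x k + x (k + 1)) (h2 : ∀ k, β k ≤ C * x k) (n : ℤ) :
    1 / C ≤ Arat β n := by
  unfold Arat
  have hC0 : 0 < C := hC
  have hn : 0 < β n := by linarith [hβ1 n]
  rw [div_le_div_iff₀ hC0 hn]
  have h3 := h2 n
  have h4 := hb1_aux h1 n
  have h5 := hx (n - 1)
  nlinarith

theorem Arat_le (hC : 0 < C) (hx : ∀ k, 0 < x k) (hβ1 : ∀ k, 1 ≤ β k)
    (h1 : ∀ k, β k = x k + x (k + 1)) (h2' : ∀ k, β k ≤ C * x (k + 1)) (n : ℤ) :
    Arat β n ≤ C := by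
  unfold Arat
  have hn : 0 < β n := by linarith [hβ1 n]
  rw [div_le_iff₀ hn]
  have h3 := h2' (n - 1)
  rw [sub_add_cancel] at h3
  have h4 := h1 n
  have h5 := hx (n + 1)
  nlinarith

/-- The inequality `(B)`. -/
theorem hBB_aux (c₁ c₂ : ℝ) (s : ℤ) (hx : ∀ k, 0 < x k) (hβ1 : ∀ k, 1 ≤ β k)
    (hB : ∀ n b : ℤ, b + s < n →
      β n * (C * x b) ≤ c₁ * (β b * (β n + β (n - 1))) + c₂ * (β (b - 1) * (β n + β (n + 1))))
    (n b : ℤ) (hnb : b + s < n) :
    C ≤ c₁ * (Vrat x β b * (1 + Arat β n)) + c₂ * (Urat x β b * (1 + 1 / Arat β (n + 1))) := by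
  have h3 := hB n b hnb
  have hn : 0 < β n := by linarith [hβ1 n]
  have hn1 : 0 < β (n + 1) := by linarith [hβ1 (n + 1)]
  have hpos : 0 < β n * x b := mul_pos hn (hx b)
  have h4 : c₁ * (Vrat x β b * (1 + Arat β n)) + c₂ * (Urat x β b * (1 + 1 / Arat β (n + 1))) =
      (c₁ * (β b * (β n + β (n - 1))) + c₂ * (β (b - 1) * (β n + β (n + 1)))) / (β n * x b) := by
    rw [Arat_succ]
    unfold Vrat Urat Arat
    have := hn.ne'
    have := hn1.ne'
    have := (hx b).ne'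
    field_simp
  rw [h4, le_div_iff₀ hpos]
  linarith

/-- If frequently `A n` is close to at least one, then `C ≤ 2 (c₁ V b + c₂ U b)`. -/
theorem hVU_aux (c₁ c₂ : ℝ) (s : ℤ) (hc₁ : 0 < c₁) (hc₂ : 0 < c₂) (hx : ∀ k, 0 < x k)
    (hβ1 : ∀ k, 1 ≤ β k)
    (hBB : ∀ n b : ℤ, b + s < n →
      C ≤ c₁ * (Vrat x β b * (1 + Arat β n)) + c₂ * (Urat x β b * (1 + 1 / Arat β (n + 1))))
    (hfr : ∀ ε > 0, ∀ N : ℤ, ∃ n, N ≤ n ∧ 1 - ε < Arat β n) (b : ℤ) :
    C ≤ 2 * (c₁ * Vrat x β b + c₂ * Urat x β b) := by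
  have hV : 0 < c₁ * Vrat x β b := mul_pos hc₁ (Vrat_pos hx hβ1 b)
  have hU : 0 < c₂ * Urat x β b := mul_pos hc₂ (Urat_pos hx hβ1 b)
  refine limit_arg C _ (4 * (c₁ * Vrat x β b + c₂ * Urat x β b)) (by positivity) ?_
  intro ε hε hε1
  set δ := ε / 2 with hδ
  have hδpos : 0 < δ := by positivity
  have hδ12 : δ ≤ 1 / 2 := by rw [hδ]; linarith
  obtain ⟨n0, hn0, hn0A⟩ := freq_ratio_le β hβ1 δ hδpos (b + s + 1)
  have hn0A' : Arat β n0 ≤ 1 + δ := by
    unfold Arat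
    have h0 : 0 < β n0 := by linarith [hβ1 n0]
    rw [div_le_iff₀ h0]
    exact hn0A
  have hex : ∃ n, n0 ≤ n ∧ Arat β n ≤ 1 + δ ∧ 1 - δ ≤ Arat β (n + 1) := by
    by_contra! hno
    have hall : ∀ m : ℕ, Arat β (n0 + m) ≤ 1 + δ := by
      intro m
      induction m with
      | zero => simpa using hn0A'
      | succ m ih =>
        have := hno (n0 + m) (by omega) ih
        have e : n0 + ((m + 1 : ℕ) : ℤ) = n0 + m + 1 := by push_cast; ring
        rw [e]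
        linarith
    obtain ⟨m, hm, hmA⟩ := hfr δ hδpos (n0 + 1)
    have hm' : ∃ j : ℕ, m - 1 = n0 + j := ⟨(m - 1 - n0).toNat, by omega⟩
    obtain ⟨j, hj⟩ := hm'
    have h5 := hall j
    rw [← hj] at h5
    have h6 := hno (m - 1) (by omega) h5
    rw [sub_add_cancel] at h6
    linarith
  obtain ⟨n, hn, hnA, hnA'⟩ := hex
  have h7 := hBB n b (by omega)
  have h1δ : 0 < 1 - δ := by linarith
  have h8 : 1 / Arat β (n + 1) ≤ 1 + 2 * δ := by
    have hp : 0 < Arat β (n + 1) := Arat_pos hβ1 _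
    rw [div_le_iff₀ hp]
    have : (1 + 2 * δ) * (1 - δ) ≥ 1 := by nlinarith
    nlinarith
  have h9 : c₁ * (Vrat x β b * (1 + Arat β n)) ≤ c₁ * Vrat x β b * (2 + δ) := by
    have : c₁ * (Vrat x β b * (1 + Arat β n)) = c₁ * Vrat x β b * (1 + Arat β n) := by ring
    rw [this]
    exact mul_le_mul_of_nonneg_left (by linarith) hV.le
  have h10 : c₂ * (Urat x β b * (1 + 1 / Arat β (n + 1))) ≤ c₂ * Urat x β b * (2 + 2 * δ) := by
    have : c₂ * (Urat x β b * (1 + 1 / Arat β (n + 1))) =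
        c₂ * Urat x β b * (1 + 1 / Arat β (n + 1)) := by ring
    rw [this]
    exact mul_le_mul_of_nonneg_left (by linarith) hU.le
  have h11 : ε = 2 * δ := by rw [hδ]; ring
  rw [h11]
  nlinarith

/-- The ratio `q k = x (k+1) / x k`. -/
noncomputable def qrat (x : ℤ → ℝ) (k : ℤ) : ℝ := x (k + 1) / x k

theorem qrat_pos (hx : ∀ k, 0 < x k) (k : ℤ) : 0 < qrat x k := div_pos (hx _) (hx _)

theorem Vrat_q (hx : ∀ k, 0 < x k) (h1 : ∀ k, β k = x k + x (k + 1)) (k : ℤ) :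
    Vrat x β k = 1 + qrat x k := by
  unfold Vrat qrat
  have := (hx k).ne'
  rw [h1 k]
  field_simp

theorem Urat_q (hx : ∀ k, 0 < x k) (h1 : ∀ k, β k = x k + x (k + 1)) (k : ℤ) :
    Urat x β k = 1 + 1 / qrat x (k - 1) := by
  unfold Urat qrat
  rw [sub_add_cancel]
  have := (hx k).ne'
  have := (hx (k - 1)).ne'
  rw [hb1_aux h1 k]
  field_simp
  ring

/-- If `q` stays below `s < 1` then `x` cannot stay above `1/C`. -/
theorem not_all_small (hC : 0 < C) (s : ℝ) (hs : 0 < s) (hs1 : s < 1) (hx : ∀ k, 0 < x k)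
    (hβ1 : ∀ k, 1 ≤ β k) (h2 : ∀ k, β k ≤ C * x k) : ¬ ∀ k, qrat x k < s := by
  intro hsmall
  have hCpos : 0 < C := hC
  have hxge : ∀ k, 1 / C ≤ x k := by
    intro k
    rw [div_le_iff₀ hCpos]
    have := h2 k
    have := hβ1 k
    nlinarith
  have hdec : ∀ m : ℕ, x (m : ℤ) ≤ s ^ m * x 0 := by
    intro m
    induction m with
    | zero => simp
    | succ m ih =>
      have h3 := hsmall (m : ℤ)
      have hxm := hx (m : ℤ)
      unfold qrat at h3
      rw [div_lt_iff₀ hxm] at h3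
      have h4 : ((m + 1 : ℕ) : ℤ) = (m : ℤ) + 1 := by push_cast; ring
      rw [h4, pow_succ]
      have hp : 0 < s ^ m := by positivity
      nlinarith
  have hx0 := hx 0
  obtain ⟨m, hm⟩ := exists_pow_lt_of_lt_one (show 0 < 1 / C / x 0 by positivity) hs1
  have h3 := hdec m
  have h4 := hxge (m : ℤ)
  rw [lt_div_iff₀ hx0] at hm
  linarith

/-- Step 1: `limsup A < 1`, in the form that `A n` cannot be frequently close to one. -/
theorem no_freq_near_one (c c₁ c₂ : ℝ) (s : ℤ) (hc₁ : 0 < c₁) (hc₂ : 0 < c₂) (h₁ : c₁ ≤ c) (h₂ : c₂ ≤ c)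
    (hC : 8 * c < C) (hc : 0 < c) (hx : ∀ k, 0 < x k) (hβ1 : ∀ k, 1 ≤ β k)
    (h1 : ∀ k, β k = x k + x (k + 1))
    (h2 : ∀ k, β k ≤ C * x k)
    (hBB : ∀ n b : ℤ, b + s < n →
      C ≤ c₁ * (Vrat x β b * (1 + Arat β n)) + c₂ * (Urat x β b * (1 + 1 / Arat β (n + 1)))) :
    ¬ ∀ ε > 0, ∀ N : ℤ, ∃ n, N ≤ n ∧ 1 - ε < Arat β n := by
  intro hfr
  have hCpos : 0 < C := by linarith
  have hVU := hVU_aux c₁ c₂ s hc₁ hc₂ hx hβ1 hBB hfr
  -- the threshold `t`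
  obtain ⟨t, ht⟩ : ∃ t, t = C / (4 * c) - 1 := ⟨_, rfl⟩
  have ht1 : 1 < t := by
    rw [ht, lt_sub_iff_add_lt, lt_div_iff₀ (by positivity)]
    linarith
  have ht0 : 0 < t := by linarith
  have hq := qrat_pos hx
  have hq2 : ∀ b, 2 * t ≤ qrat x b + 1 / qrat x (b - 1) := by
    intro b
    have h3 := hVU b
    rw [Vrat_q hx h1, Urat_q hx h1] at h3
    have hq1 : 0 < 1 / qrat x (b - 1) := by have := hq (b - 1); positivity
    have hqb := hq b
    have h4 : C ≤ 2 * (c * (1 + qrat x b) + c * (1 + 1 / qrat x (b - 1))) := by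
      have h5 : c₁ * (1 + qrat x b) ≤ c * (1 + qrat x b) :=
        mul_le_mul_of_nonneg_right h₁ (by positivity)
      have h6 : c₂ * (1 + 1 / qrat x (b - 1)) ≤ c * (1 + 1 / qrat x (b - 1)) :=
        mul_le_mul_of_nonneg_right h₂ (by positivity)
      linarith
    have h7 : (t + 1) * (4 * c) = C := by
      rw [ht]
      field_simp
      ring
    have h8 : (t + 1) * (4 * c) ≤ 2 * (c * (1 + qrat x b) + c * (1 + 1 / qrat x (b - 1))) := by
      rw [h7]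
      exact h4
    have h9 : c * (4 * t + 4) ≤ c * (2 * (2 + qrat x b + 1 / qrat x (b - 1))) := by
      nlinarith
    have h10 := le_of_mul_le_mul_left h9 hc
    linarith
  have hst : 1 / t < 1 := by
    rw [div_lt_one ht0]
    exact ht1
  have hs0 : 0 < 1 / t := by positivity
  have hsmall : ¬ ∀ k, qrat x k < 1 / t := not_all_small hCpos (1 / t) hs0 hst hx hβ1 h2
  push Not at hsmall
  obtain ⟨b0, hb0⟩ := hsmall
  have step1 : ∀ k, 1 / t ≤ qrat x k → t ≤ qrat x (k + 1) := by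
    intro k hk
    have h3 := hq2 (k + 1)
    rw [add_sub_cancel_right] at h3
    have h4 : 1 / qrat x k ≤ t := by
      rw [div_le_iff₀ (hq k)]
      rw [div_le_iff₀ ht0] at hk
      linarith
    linarith
  have hst' : 1 / t ≤ t := by linarith
  have hlarge : ∀ m : ℕ, t ≤ qrat x (b0 + 1 + m) := by
    intro m
    induction m with
    | zero => simpa using step1 _ hb0
    | succ m ih =>
      have h3 := step1 _ (le_trans hst' ih)
      have h4 : b0 + 1 + (m : ℤ) + 1 = b0 + 1 + ((m + 1 : ℕ) : ℤ) := by push_cast; ring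
      rwa [h4] at h3
  have hlarge' : ∀ k, b0 + 1 ≤ k → t ≤ qrat x k := by
    intro k hk
    have h3 := hlarge (k - (b0 + 1)).toNat
    have h4 : b0 + 1 + (((k - (b0 + 1)).toNat : ℕ) : ℤ) = k := by omega
    rwa [h4] at h3
  obtain ⟨n, hn, hnA⟩ := hfr (1 - 1 / t) (by linarith) (b0 + 2)
  have h3 := hlarge' n (by omega)
  have h4 := hlarge' (n - 1) (by omega)
  have hAV : Arat β n * Vrat x β n = Urat x β n := (Urat_eq hx hβ1 n).symm
  rw [Vrat_q hx h1, Urat_q hx h1] at hAV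
  have h5 : 1 / qrat x (n - 1) ≤ 1 / t := one_div_le_one_div_of_le ht0 h4
  have h6 := Arat_pos hβ1 n
  have h7 : 1 / t < Arat β n := by linarith
  have h8 : 1 / t * (1 + t) < Arat β n * (1 + qrat x n) := by
    have : 1 / t * (1 + t) < Arat β n * (1 + t) := mul_lt_mul_of_pos_right h7 (by linarith)
    have : Arat β n * (1 + t) ≤ Arat β n * (1 + qrat x n) :=
      mul_le_mul_of_nonneg_left (by linarith) h6.le
    linarith
  have h9 : 1 / t * (1 + t) = 1 + 1 / t := by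
    field_simp
    ring
  linarith

/-- Step 2, inequality `(D)`. -/
theorem hD_aux (c₁ c₂ : ℝ) (s : ℤ) (hc₁ : 0 < c₁) (hc₂ : 0 < c₂) (a : ℝ) (hapos : 0 < a)
    (hx : ∀ k, 0 < x k) (hβ1 : ∀ k, 1 ≤ β k)
    (hBB : ∀ n b : ℤ, b + s < n →
      C ≤ c₁ * (Vrat x β b * (1 + Arat β n)) + c₂ * (Urat x β b * (1 + 1 / Arat β (n + 1))))
    (hev : ∀ ε > 0, ∃ N : ℤ, ∀ n, N ≤ n → Arat β n < a + ε)
    (hfr : ∀ ε > 0, ∀ N : ℤ, ∃ n, N ≤ n ∧ a - ε < Arat β n) (b : ℤ) :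
    C ≤ c₁ * (Vrat x β b * (1 + a)) + c₂ * (Urat x β b * (1 + 1 / a)) := by
  have hV := Vrat_pos hx hβ1 b
  have hU := Urat_pos hx hβ1 b
  set c := min (a / 2) 1 with hcdef
  have hcpos : 0 < c := lt_min (by linarith) one_pos
  have hca : c ≤ a / 2 := min_le_left _ _
  have hc1 : c ≤ 1 := min_le_right _ _
  refine limit_arg C _ (c₁ * (Vrat x β b * 1) + c₂ * (Urat x β b * (2 / a ^ 2))) (by positivity) ?_
  intro ε hε hε1
  -- it suffices to treat `δ = ε c` and use `δ ≤ ε`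
  set δ := ε * c with hδdef
  have hδpos : 0 < δ := by positivity
  have hδc : δ ≤ c := by rw [hδdef]; nlinarith
  have hδ : δ ≤ a / 2 := by linarith
  have hδε : δ ≤ ε := by rw [hδdef]; nlinarith
  obtain ⟨N, hN⟩ := hev δ hδpos
  obtain ⟨m, hm, hmA⟩ := hfr δ hδpos (max (N + 1) (b + s + 2))
  have hm1 : N + 1 ≤ m := le_trans (le_max_left _ _) hm
  have hm2 : b + s + 2 ≤ m := le_trans (le_max_right _ _) hm
  have h3 := hBB (m - 1) b (by omega)
  rw [sub_add_cancel] at h3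
  have h4 := hN (m - 1) (by omega)
  have haδ : 0 < a - δ := by linarith
  have h5 : 1 / Arat β m ≤ 1 / a + 2 * δ / a ^ 2 := by
    have h6 : 1 / Arat β m ≤ 1 / (a - δ) := one_div_le_one_div_of_le haδ hmA.le
    have h7 : 1 / (a - δ) ≤ 1 / a + 2 * δ / a ^ 2 := by
      have : 1 / a + 2 * δ / a ^ 2 - 1 / (a - δ) = δ * (a - 2 * δ) / (a ^ 2 * (a - δ)) := by
        field_simp
        ring
      have h8 : 0 ≤ δ * (a - 2 * δ) / (a ^ 2 * (a - δ)) := by
        apply div_nonneg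
        · apply mul_nonneg hδpos.le
          linarith
        · positivity
      linarith
    linarith
  have h9 : Vrat x β b * (1 + Arat β (m - 1)) ≤ Vrat x β b * (1 + a + ε) :=
    mul_le_mul_of_nonneg_left (by linarith) hV.le
  have h10 : Urat x β b * (1 + 1 / Arat β m) ≤ Urat x β b * (1 + 1 / a + ε * (2 / a ^ 2)) := by
    apply mul_le_mul_of_nonneg_left _ hU.le
    have h11 : 2 * δ / a ^ 2 ≤ ε * (2 / a ^ 2) := by
      have h12 : 2 * δ / a ^ 2 = δ * (2 / a ^ 2) := by ring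
      rw [h12]
      exact mul_le_mul_of_nonneg_right hδε (by positivity)
    linarith
  have h9' := mul_le_mul_of_nonneg_left h9 hc₁.le
  have h10' := mul_le_mul_of_nonneg_left h10 hc₂.le
  have e1 : c₁ * (Vrat x β b * (1 + a + ε)) = c₁ * (Vrat x β b * (1 + a)) + ε * (c₁ * (Vrat x β b * 1)) := by ring
  have e2 : c₂ * (Urat x β b * (1 + 1 / a + ε * (2 / a ^ 2))) =
      c₂ * (Urat x β b * (1 + 1 / a)) + ε * (c₂ * (Urat x β b * (2 / a ^ 2))) := by ring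
  rw [mul_add ε]
  linarith

/-- Eventually `V ≥ w` for `w < v₀`. -/
theorem hVev_aux (c₁ c₂ : ℝ) (hc₁ : 0 < c₁) (hc₂ : 0 < c₂) (a : ℝ) (hapos : 0 < a)
    (hx : ∀ k, 0 < x k) (hβ1 : ∀ k, 1 ≤ β k)
    (hD : ∀ b, C ≤ c₁ * (Vrat x β b * (1 + a)) + c₂ * (Urat x β b * (1 + 1 / a)))
    (hev : ∀ ε > 0, ∃ N : ℤ, ∀ n, N ≤ n → Arat β n < a + ε)
    (w : ℝ) (hw1 : 1 < w) (hwv : w * ((c₁ + c₂) * (1 + a)) < C) :
    ∃ N : ℤ, ∀ b, N ≤ b → w ≤ Vrat x β b := by
  have h1a : 0 < 1 + a := by linarith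
  have hw0 : 0 < w := by linarith
  have hgap : 0 < C - w * ((c₁ + c₂) * (1 + a)) := by linarith
  set ε := a * (C - w * ((c₁ + c₂) * (1 + a))) / (w * (1 + a) * c₂) with hεdef
  have hεpos : 0 < ε := by positivity
  obtain ⟨N, hN⟩ := hev ε hεpos
  refine ⟨N, fun b hb => ?_⟩
  have h3 := hD b
  have h4 := hN b hb
  have hV := Vrat_pos hx hβ1 b
  have h5 : Urat x β b ≤ (a + ε) * Vrat x β b := by
    rw [Urat_eq hx hβ1 b]
    exact mul_le_mul_of_nonneg_right h4.le hV.le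
  have h6 : c₂ * (Urat x β b * (1 + 1 / a)) ≤ c₂ * ((a + ε) * Vrat x β b * (1 + 1 / a)) :=
    mul_le_mul_of_nonneg_left (mul_le_mul_of_nonneg_right h5 (by positivity)) hc₂.le
  have h7 : C ≤ Vrat x β b * ((1 + a) * (c₁ + c₂ + c₂ * ε / a)) := by
    have : Vrat x β b * ((1 + a) * (c₁ + c₂ + c₂ * ε / a)) =
        c₁ * (Vrat x β b * (1 + a)) + c₂ * ((a + ε) * Vrat x β b * (1 + 1 / a)) := by
      field_simp
      ring
    rw [this]
    linarith
  have h8 : w * ((1 + a) * (c₁ + c₂ + c₂ * ε / a)) = C := by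
    rw [hεdef]
    field_simp
    ring
  have h9 : 0 < (1 + a) * (c₁ + c₂ + c₂ * ε / a) := by positivity
  have h10 : w * ((1 + a) * (c₁ + c₂ + c₂ * ε / a)) ≤
      Vrat x β b * ((1 + a) * (c₁ + c₂ + c₂ * ε / a)) := by
    rw [h8]
    exact h7
  exact le_of_mul_le_mul_right h10 h9

/-- If eventually `V ≥ w`, then eventually `A ≤ 1/(w-1)`. -/
theorem Arat_le_of_V (hx : ∀ k, 0 < x k) (hβ1 : ∀ k, 1 ≤ β k)
    (h1 : ∀ k, β k = x k + x (k + 1))
    (w : ℝ) (hw1 : 1 < w) (N : ℤ) (hN : ∀ b, N ≤ b → w ≤ Vrat x β b) (n : ℤ) (hn : N + 1 ≤ n) :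
    Arat β n ≤ 1 / (w - 1) := by
  have h3 := hN n (by omega)
  have h4 := hN (n - 1) (by omega)
  have h5 : w * x (n - 1) ≤ β (n - 1) := by
    have := hx (n - 1)
    unfold Vrat at h4
    rwa [le_div_iff₀ this] at h4
  have h6 : w * x n ≤ β n := by
    have := hx n
    unfold Vrat at h3
    rwa [le_div_iff₀ this] at h3
  have h7 := hb1_aux h1 n
  have hw : 0 < w - 1 := by linarith
  unfold Arat
  have hn0 : 0 < β n := by linarith [hβ1 n]
  rw [div_le_div_iff₀ hn0 hw]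
  have h8 : (w - 1) * x (n - 1) ≤ x n := by nlinarith
  have h9 : β (n - 1) * (w - 1) ≤ w * x n := by
    rw [h7]
    nlinarith
  linarith

/-- Arithmetic of `v₀`. -/
theorem v0_arith (C c a v₀ : ℝ) (hc : 1 ≤ c) (hC : (c + 2) ^ 2 < C) (ha1 : a < 1) (hapos : 0 < a)
    (hv₀eq : v₀ * ((1 + c) * (1 + a)) = C) (hab0 : a * (v₀ - 1) ≤ 1) :
    2 < v₀ ∧ C < v₀ ^ 2 := by
  have h1a : 0 < 1 + a := by linarith
  have h1c : 0 < 1 + c := by linarith
  have hv₀pos : 0 < v₀ := by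
    by_contra! hle
    have : v₀ * ((1 + c) * (1 + a)) ≤ 0 :=
      mul_nonpos_of_nonpos_of_nonneg hle (by positivity)
    nlinarith
  have hv₀gt : 2 < v₀ := by
    by_contra! hle
    have h3 : v₀ * ((1 + c) * (1 + a)) ≤ 2 * ((1 + c) * (1 + a)) :=
      mul_le_mul_of_nonneg_right hle (by positivity)
    have h4 : (1 + c) * (1 + a) < (1 + c) * 2 := mul_lt_mul_of_pos_left (by linarith) h1c
    nlinarith [sq_nonneg c]
  refine ⟨hv₀gt, ?_⟩
  have hv1 : 0 < v₀ - 1 := by linarith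
  have hmain : C * (v₀ - 1) ≤ (1 + c) * v₀ ^ 2 := by
    have h3 : C * (v₀ - 1) = v₀ * (1 + c) * ((v₀ - 1) + a * (v₀ - 1)) := by
      rw [← hv₀eq]
      ring
    rw [h3]
    have h5 : v₀ * (1 + c) * ((v₀ - 1) + a * (v₀ - 1)) ≤ v₀ * (1 + c) * ((v₀ - 1) + 1) :=
      mul_le_mul_of_nonneg_left (by linarith) (by positivity)
    calc _ ≤ _ := h5
      _ = _ := by ring
  by_contra! hle
  have h3 : v₀ ^ 2 * (v₀ - 1) ≤ (1 + c) * v₀ ^ 2 := by
    calc v₀ ^ 2 * (v₀ - 1) ≤ C * (v₀ - 1) := mul_le_mul_of_nonneg_right hle hv1.le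
      _ ≤ _ := hmain
  have h4 : v₀ ≤ c + 2 := by
    have hsq : 0 < v₀ ^ 2 := by positivity
    have : v₀ - 1 ≤ 1 + c := by
      have h5 : v₀ ^ 2 * (v₀ - 1) ≤ v₀ ^ 2 * (1 + c) := by linarith
      exact le_of_mul_le_mul_left h5 hsq
    linarith
  have h5 : (c + 2) ^ 2 * (v₀ - 1) < C * (v₀ - 1) := mul_lt_mul_of_pos_right hC hv1
  have h6 : 0 ≤ (c + 2 - v₀) * ((1 + c) * v₀ - (c + 2)) := by
    apply mul_nonneg (by linarith)
    nlinarith
  nlinarith

end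

/-- One side: under the `(B)`-inequality for `b < n`, the ratio `β k / x k` is eventually at least
some `v` with `v ^ 2 > C`. -/
theorem oneSided (C c c₁ c₂ : ℝ) (s : ℤ) (hc : 1 ≤ c) (hc₁ : 0 < c₁) (hc₂ : 0 < c₂) (h₁ : c₁ ≤ c)
    (h₂ : c₂ ≤ c) (hsum : c₁ + c₂ = 1 + c) (hC : (c + 2) ^ 2 < C) (x β : ℤ → ℝ)
    (hx : ∀ k, 0 < x k) (hβ1 : ∀ k, 1 ≤ β k)
    (h1 : ∀ k, β k = x k + x (k + 1))
    (h2 : ∀ k, β k ≤ C * x k) (h2' : ∀ k, β k ≤ C * x (k + 1))
    (hB : ∀ n b : ℤ, b + s < n →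
      β n * (C * x b) ≤ c₁ * (β b * (β n + β (n - 1))) + c₂ * (β (b - 1) * (β n + β (n + 1)))) :
    ∃ v : ℝ, 0 < v ∧ C < v ^ 2 ∧ ∃ N : ℤ, ∀ k, N ≤ k → v * x k ≤ β k := by
  have hCpos : 0 < C := by nlinarith
  have hC8 : 8 * c < C := by nlinarith [sq_nonneg (c - 2)]
  have hBB := hBB_aux c₁ c₂ s hx hβ1 hB
  have hAge := Arat_ge hCpos hx hβ1 h1 h2
  have hAle := Arat_le hCpos hx hβ1 h1 h2'
  -- the limsup
  let S : Set ℝ := {t | ∃ N : ℤ, ∀ n, N ≤ n → Arat β n ≤ t}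
  have hSne : S.Nonempty := ⟨C, 0, fun n _ => hAle n⟩
  have hSbdd : BddBelow S := by
    refine ⟨1 / C, ?_⟩
    rintro t ⟨N, hN⟩
    exact (hAge N).trans (hN N le_rfl)
  obtain ⟨a, ha⟩ : ∃ a, a = sInf S := ⟨_, rfl⟩
  have ha_ge : 1 / C ≤ a := by
    rw [ha]
    refine le_csInf hSne ?_
    rintro t ⟨N, hN⟩
    exact (hAge N).trans (hN N le_rfl)
  have hapos : 0 < a := lt_of_lt_of_le (by positivity) ha_ge
  have hev : ∀ ε > 0, ∃ N : ℤ, ∀ n, N ≤ n → Arat β n < a + ε := by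
    intro ε hε
    obtain ⟨t, ⟨N, hN⟩, ht⟩ := exists_lt_of_csInf_lt hSne (by rw [← ha]; linarith : sInf S < a + ε)
    exact ⟨N, fun n hn => lt_of_le_of_lt (hN n hn) ht⟩
  have hfr : ∀ ε > 0, ∀ N : ℤ, ∃ n, N ≤ n ∧ a - ε < Arat β n := by
    intro ε hε N
    by_contra! h
    have hm : a - ε ∈ S := ⟨N, h⟩
    have := csInf_le hSbdd hm
    rw [← ha] at this
    linarith
  -- Step 1
  have ha_lt : a < 1 := by
    by_contra! ha1
    apply no_freq_near_one c c₁ c₂ s hc₁ hc₂ h₁ h₂ hC8 (by linarith) hx hβ1 h1 h2 hBB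
    intro ε hε N
    obtain ⟨n, hn, hnA⟩ := hfr ε hε N
    exact ⟨n, hn, by linarith⟩
  -- Step 2
  have hD := hD_aux c₁ c₂ s hc₁ hc₂ a hapos hx hβ1 hBB hev hfr
  obtain ⟨v₀, hv₀⟩ : ∃ v₀, v₀ = C / ((1 + c) * (1 + a)) := ⟨_, rfl⟩
  have h1a : 0 < 1 + a := by linarith
  have h1c : 0 < 1 + c := by linarith
  have hv₀pos : 0 < v₀ := by rw [hv₀]; positivity
  have hv₀eq : v₀ * ((1 + c) * (1 + a)) = C := by
    rw [hv₀]
    field_simp
  have hwlt : ∀ w, w < v₀ → w * ((c₁ + c₂) * (1 + a)) < C := by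
    intro w hw
    rw [← hv₀eq, hsum]
    exact mul_lt_mul_of_pos_right hw (by positivity)
  have hab : ∀ w, 1 < w → w < v₀ → a * (w - 1) ≤ 1 := by
    intro w hw1 hwv
    obtain ⟨N, hN⟩ := hVev_aux c₁ c₂ hc₁ hc₂ a hapos hx hβ1 hD hev w hw1 (hwlt w hwv)
    have hmem : 1 / (w - 1) ∈ S := ⟨N + 1, fun n hn => Arat_le_of_V hx hβ1 h1 w hw1 N hN n hn⟩
    have h3 := csInf_le hSbdd hmem
    rw [← ha] at h3
    have hw : 0 < w - 1 := by linarith
    rw [le_div_iff₀ hw] at h3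
    exact h3
  have hab0 : a * (v₀ - 1) ≤ 1 := by
    by_contra! hgt
    have hgap : 0 < a * (v₀ - 1) - 1 := by linarith
    obtain ⟨w, hwdef⟩ : ∃ w, w = v₀ - (a * (v₀ - 1) - 1) / (2 * a) := ⟨_, rfl⟩
    have h3 : 0 < (a * (v₀ - 1) - 1) / (2 * a) := by positivity
    have hwv : w < v₀ := by rw [hwdef]; linarith
    have hwa : a * (w - 1) = (a * (v₀ - 1) + 1) / 2 := by
      rw [hwdef]
      field_simp
      ring
    have hw1 : 1 < w := by
      have h4 : 0 < a * (w - 1) := by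
        rw [hwa]
        linarith
      have h5 : 0 < w - 1 := by
        by_contra! h6
        nlinarith
      linarith
    have h4 := hab w hw1 hwv
    rw [hwa] at h4
    linarith
  obtain ⟨hv₀gt, hv₀sq⟩ := v0_arith C c a v₀ hc hC ha_lt hapos hv₀eq hab0
  -- choose `v`
  obtain ⟨v, hvdef⟩ : ∃ v, v = (v₀ ^ 2 + C) / (2 * v₀) := ⟨_, rfl⟩
  have hvpos : 0 < v := by rw [hvdef]; positivity
  have hvlt : v < v₀ := by
    rw [hvdef, div_lt_iff₀ (by positivity)]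
    nlinarith
  have hvsq : C < v ^ 2 := by
    have h3 : v * (2 * v₀) = v₀ ^ 2 + C := by
      rw [hvdef]
      field_simp
    have h4 : 0 < (v - v₀) ^ 2 := by
      have : v - v₀ ≠ 0 := (sub_neg.mpr hvlt).ne
      positivity
    nlinarith
  have hv1 : 1 < v := by
    by_contra! hle
    nlinarith
  obtain ⟨N, hN⟩ := hVev_aux c₁ c₂ hc₁ hc₂ a hapos hx hβ1 hD hev v hv1 (hwlt v hvlt)
  refine ⟨v, hvpos, hvsq, N, fun k hk => ?_⟩
  have h3 := hN k hk
  unfold Vrat at h3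
  rwa [le_div_iff₀ (hx k)] at h3

/-- The pure number lemma. -/
theorem numbers (C c : ℝ) (hc : 1 ≤ c) (hC : (c + 2) ^ 2 < C) (s : ℕ) (x β : ℤ → ℝ)
    (hx : ∀ k, 0 < x k) (hβ1 : ∀ k, 1 ≤ β k)
    (h1 : ∀ k, β k = x k + x (k + 1))
    (h2 : ∀ k, β k ≤ C * x k) (h2' : ∀ k, β k ≤ C * x (k + 1))
    (ε : ℤ) (hA : ∀ k b : ℤ, b + s ≤ k → (k - b) % 2 = ε → β k * β (b - 1) ≤ C * x k * x b)
    (hε : ε = 0 ∨ ε = 1)
    (hB : ∀ n b : ℤ, (b + s < n ∨ n + s ≤ b - 2) →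
      β n * (C * x b) ≤ 1 * (β b * (β n + β (n - 1))) + c * (β (b - 1) * (β n + β (n + 1)))) :
    False := by
  have hCpos : 0 < C := by nlinarith
  obtain ⟨v, hv, hvC, N, hN⟩ := oneSided C c 1 c s hc one_pos (by linarith) hc le_rfl rfl hC x β
    hx hβ1 h1 h2 h2' (fun n b h => hB n b (Or.inl h))
  -- the reversed sequence
  obtain ⟨v', hv', hvC', N', hN'⟩ := oneSided C c c 1 s hc (by linarith) one_pos le_rfl hc
    (add_comm _ _) hC (fun j => x (-j)) (fun j => β (-j - 1))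
    (fun k => hx _) (fun k => hβ1 _)
    (by
      intro k
      have := h1 (-k - 1)
      have h3 : -k - 1 + 1 = -k := by ring
      rw [h3] at this
      have h4 : -(k + 1) = -k - 1 := by ring
      simp only [h4]
      linarith)
    (by
      intro k
      have := h2' (-k - 1)
      have h3 : -k - 1 + 1 = -k := by ring
      rwa [h3] at this)
    (by
      intro k
      have := h2 (-k - 1)
      have h4 : -(k + 1) = -k - 1 := by ring
      simp only [h4]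
      exact this)
    (by
      intro n b hnb
      have := hB (-n - 1) (-b) (Or.inr (by omega))
      have e2 : -(n - 1) - 1 = -n := by ring
      have e3 : -(b - 1) - 1 = -b := by ring
      have e4 : -(n + 1) - 1 = -n - 1 - 1 := by ring
      have e5 : -n - 1 + 1 = -n := by ring
      simp only [e2, e3, e4]
      rw [e5] at this
      linarith)
  -- pick the indices
  obtain ⟨b, hbdef⟩ : ∃ b : ℤ, b = min (-N') (N - s) := ⟨_, rfl⟩
  have hb1 : b ≤ -N' := hbdef ▸ min_le_left _ _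
  have hb2 : b ≤ N - s := hbdef ▸ min_le_right _ _
  obtain ⟨k, hkdef⟩ : ∃ k : ℤ, k = N + (ε - (N - b)) % 2 := ⟨_, rfl⟩
  have hmod0 : 0 ≤ (ε - (N - b)) % 2 := Int.emod_nonneg _ (by norm_num)
  have hk1 : N ≤ k := by omega
  have hk2 : b + s ≤ k := by omega
  have hkmod : (k - b) % 2 = ε := by
    rcases hε with h | h <;> omega
  have h3 := hA k b hk2 hkmod
  have h4 := hN k hk1
  have h5 := hN' (-b) (by omega)
  simp only [neg_neg] at h5
  have hxk := hx k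
  have hxb := hx b
  have h6 : v * x k * (v' * x b) ≤ β k * β (b - 1) :=
    mul_le_mul h4 h5 (by positivity) (by have := hβ1 k; linarith)
  have h7 : v * v' ≤ C := by
    have hpos : 0 < x k * x b := by positivity
    have h8 : v * v' * (x k * x b) ≤ C * (x k * x b) := by nlinarith
    exact le_of_mul_le_mul_right h8 hpos
  have h8 : C ^ 2 < (v * v') ^ 2 := by
    rw [mul_pow]
    have := mul_lt_mul'' hvC hvC' hCpos.le hCpos.le
    nlinarith
  have h9 : 0 < v * v' := by positivity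
  nlinarith

end Vale.Agent.Lib.P195H
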