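import Vale.Agent.Lib.P195.Tri

/-!
Facts on local self-injective rings with `J⁴ = 0`.
-/

set_option linter.style.haveILetI false
set_option linter.unusedVariables false

namespace Vale.Agent.Lib.P195H

open Vale.Agent.Lib.P195

universe u

/-- Local self-injective rings with nilpotent Jacobson radical. -/
structure LSI (R : Type u) [Ring R] : Prop where
  nontriv : Nontrivial R
  unit : ∀ x : R, x ∉ Ring.jacobson R → IsUnit x
  inj : Module.Injective R R
  nil : IsNilpotent (Ring.jacobson R)

variable {R : Type u} [Ring R]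

lemma LSI.one_not_mem (L : LSI R) : (1 : R) ∉ Ring.jacobson R := by
  haveI := L.nontriv
  intro h
  have : Ring.jacobson R = ⊤ := (Ideal.eq_top_iff_one _).mpr h
  exact absurd this (ne_of_lt (Ring.jacobson_lt_top R))

/-- One minus a radical element is a unit. -/
lemma LSI.isUnit_one_sub (L : LSI R) {a : R} (ha : a ∈ Ring.jacobson R) : IsUnit (1 - a) := by
  apply L.unit
  intro h
  apply L.one_not_mem
  have := (Ring.jacobson R).add_mem h ha
  simpa using this

/-- Every nonzero element has a nonzero multiple killed by the radical. -/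
lemma LSI.exists_soc (L : LSI R) {X : Type*} [AddCommGroup X] [Module R X] (x : X) (hx : x ≠ 0) :
    ∃ a : R, a • x ≠ 0 ∧ ∀ j ∈ Ring.jacobson R, j • (a • x) = 0 := by
  by_contra h
  push Not at h
  obtain ⟨m, hm⟩ := L.nil
  have key : ∀ k : ℕ, ∃ a ∈ (Ring.jacobson R) ^ (k + 1), a • x ≠ 0 := by
    intro k
    induction k with
    | zero =>
      obtain ⟨j, hj, hne⟩ := h 1 (by simpa using hx)
      refine ⟨j, ?_, by simpa using hne⟩
      rw [Submodule.pow_succ, Submodule.pow_zero, Submodule.one_mul]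
      exact hj
    | succ k ih =>
      obtain ⟨a, ha, hne⟩ := ih
      obtain ⟨j, hj, hne'⟩ := h a hne
      refine ⟨j * a, ?_, by rwa [mul_smul]⟩
      rw [Submodule.pow_succ' _ (by omega)]
      exact Submodule.mul_mem_mul hj ha
  obtain ⟨a, ha, hne⟩ := key m
  rw [Submodule.pow_succ, hm] at ha
  have h0 : (0 : Ideal R) * Ring.jacobson R = 0 := Submodule.bot_mul _
  rw [h0] at ha
  have ha0 : a = 0 := by simpa using ha
  exact hne (by rw [ha0, zero_smul])

/-- An element of a module killed by the radical can be sent to any element of the ring killed by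
the radical. -/
lemma LSI.exists_map_of_soc (L : LSI R) {X : Type u} [AddCommGroup X] [Module R X] (y : X)
    (hy : ∀ j ∈ Ring.jacobson R, j • y = 0) (hy0 : y ≠ 0) (s : R)
    (hs : ∀ j ∈ Ring.jacobson R, j * s = 0) :
    ∃ f : X →ₗ[R] R, f y = s := by
  haveI := L.inj
  -- the map `r ↦ r • y`
  let p : R →ₗ[R] X := LinearMap.toSpanSingleton R X y
  let g : R →ₗ[R] R := LinearMap.toSpanSingleton R R s
  have hker : LinearMap.ker p ≤ LinearMap.ker g := by
    intro r hr
    have hr' : r • y = 0 := hr
    have hrJ : r ∈ Ring.jacobson R := by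
      by_contra hn
      obtain ⟨u, rfl⟩ := L.unit r hn
      apply hy0
      have := congrArg (fun z => (↑u⁻¹ : R) • z) hr'
      simpa [smul_smul] using this
    exact hs r hrJ
  -- the induced map on the range of `p`
  let e : (R ⧸ LinearMap.ker p) ≃ₗ[R] LinearMap.range p := p.quotKerEquivRange
  let g' : LinearMap.range p →ₗ[R] R := ((LinearMap.ker p).liftQ g hker) ∘ₗ e.symm.toLinearMap
  obtain ⟨f, hf⟩ := Module.Injective.out (LinearMap.range p).subtype
    (Submodule.subtype_injective _) g'
  refine ⟨f, ?_⟩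
  have hmem : y ∈ LinearMap.range p := ⟨1, by simp [p]⟩
  have := hf ⟨y, hmem⟩
  rw [show (LinearMap.range p).subtype ⟨y, hmem⟩ = y from rfl] at this
  rw [this]
  have hee : e.symm ⟨y, hmem⟩ = Submodule.Quotient.mk 1 := by
    rw [LinearEquiv.symm_apply_eq]
    apply Subtype.ext
    simp [e, p]
  simp [g', hee, g]

/-- A nonzero element of the ring killed by the radical. -/
lemma LSI.exists_soc_ring (L : LSI R) : ∃ s : R, s ≠ 0 ∧ ∀ j ∈ Ring.jacobson R, j * s = 0 := by
  haveI := L.nontriv
  obtain ⟨a, ha, h⟩ := L.exists_soc (1 : R) one_ne_zero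
  exact ⟨a • 1, ha, fun j hj => h j hj⟩

/-- The ring cogenerates: functionals separate points. -/
lemma LSI.exists_functional (L : LSI R) {X : Type u} [AddCommGroup X] [Module R X] (x : X)
    (hx : x ≠ 0) : ∃ f : X →ₗ[R] R, f x ≠ 0 := by
  obtain ⟨a, ha, h⟩ := L.exists_soc x hx
  obtain ⟨s, hs0, hs⟩ := L.exists_soc_ring
  obtain ⟨f, hf⟩ := L.exists_map_of_soc (a • x) h ha s hs
  refine ⟨f, fun h0 => hs0 ?_⟩
  rw [← hf, map_smul, h0, smul_zero]

/-- The socle of the ring is killed by the radical from the right. -/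
lemma LSI.soc_mul (L : LSI R) {s : R} (hs : ∀ j ∈ Ring.jacobson R, j * s = 0) {a : R}
    (ha : a ∈ Ring.jacobson R) : s * a = 0 := by
  by_contra h
  obtain ⟨f, hf⟩ := L.exists_map_of_soc (s * a)
    (fun j hj => by rw [smul_eq_mul, ← mul_assoc, hs j hj, zero_mul]) h s hs
  have h1 : f (s * a) = (s * a) * f 1 := by
    have := map_smul f (s * a) (1 : R)
    simpa using this
  rw [h1] at hf
  have hu := L.isUnit_one_sub (Ideal.mul_mem_right (f 1) (Ring.jacobson R) ha)
  obtain ⟨u, hu⟩ := hu
  apply h
  have h2 : s * (1 - a * f 1) = 0 := by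
    rw [mul_sub, mul_one, ← mul_assoc, hf, sub_self]
  rw [← hu] at h2
  have h3 : s = 0 := by
    have := congrArg (fun z => z * (↑u⁻¹ : R)) h2
    simpa [mul_assoc] using this
  rw [h3, zero_mul]

/-- The elements killed by the radical form a single right orbit. -/
lemma LSI.soc_transitive (L : LSI R) {s s' : R} (hs : ∀ j ∈ Ring.jacobson R, j * s = 0)
    (hs' : ∀ j ∈ Ring.jacobson R, j * s' = 0) (h0 : s ≠ 0) : ∃ t, s * t = s' := by
  obtain ⟨f, hf⟩ := L.exists_map_of_soc s (fun j hj => hs j hj) h0 s' hs'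
  refine ⟨f 1, ?_⟩
  have := map_smul f s (1 : R)
  simp only [smul_eq_mul, mul_one] at this
  rw [← hf, this]

end Vale.Agent.Lib.P195H
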